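import Mathlib

open MeasureTheory Set Metric Filter Topology
open scoped NNReal ENNReal Pointwise

namespace Vale.Agent.Lib.P127

variable {E : Type*} [NormedAddCommGroup E] [NormedSpace ℝ E] [FiniteDimensional ℝ E]
  [MeasurableSpace E] [BorelSpace E] (μ : Measure E) [μ.IsAddHaarMeasure]

/-- A map which is differentiable with invertible derivative along a set of positive outer
measure has an image of positive outer measure. No measurability is needed. -/
theorem measure_image_ne_zero_of_det_ne_zero {f : E → E} {s : Set E} {f' : E → E →L[ℝ] E}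
    (hf' : ∀ x ∈ s, HasFDerivWithinAt f (f' x) s x) (hdet : ∀ x ∈ s, (f' x).det ≠ 0)
    (hs : μ s ≠ 0) : μ (f '' s) ≠ 0 := by
  intro h0
  have key : ∀ A : E →L[ℝ] E, ∃ δ : ℝ≥0, 0 < δ ∧
      (A.det ≠ 0 → ∀ t : Set E, ApproximatesLinearOn f A t δ → μ (f '' t) = 0 → μ t = 0) := by
    intro A
    by_cases hA : A.det = 0
    · exact ⟨1, one_pos, fun h => absurd hA h⟩
    · have hpos : 0 < |A.det| / 2 := by positivity
      have hm : ((Real.toNNReal (|A.det| / 2) : ℝ≥0) : ℝ≥0∞) < ENNReal.ofReal |A.det| := by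
        show ENNReal.ofReal (|A.det| / 2) < ENNReal.ofReal |A.det|
        exact (ENNReal.ofReal_lt_ofReal_iff (abs_pos.2 hA)).2 (by linarith [abs_pos.2 hA])
      rcases ((mul_le_addHaar_image_of_lt_det μ A hm).and self_mem_nhdsWithin).exists with
        ⟨δ, h, h'⟩
      refine ⟨δ, h', fun _ t ht h0t => ?_⟩
      have h1 := h t f ht
      rw [h0t] at h1
      have h2 : ((Real.toNNReal (|A.det| / 2) : ℝ≥0) : ℝ≥0∞) ≠ 0 := by
        simp only [ne_eq, ENNReal.coe_eq_zero, Real.toNNReal_eq_zero, not_le]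
        exact hpos
      rcases mul_eq_zero.1 (nonpos_iff_eq_zero.1 h1) with h3 | h3
      · exact absurd h3 h2
      · exact h3
  choose δ hδ using key
  obtain ⟨t, A, -, -, t_cover, ht, hA⟩ :=
    exists_partition_approximatesLinearOn_of_hasFDerivWithinAt f s f' hf' δ
      (fun A => (hδ A).1.ne')
  have hne : s.Nonempty := by
    rcases eq_empty_or_nonempty s with h | h
    · rw [h, measure_empty] at hs; exact absurd rfl hs
    · exact h
  have hnull : ∀ n, μ (s ∩ t n) = 0 := by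
    intro n
    obtain ⟨y, ys, hy⟩ := hA hne n
    have hd : (A n).det ≠ 0 := by rw [hy]; exact hdet y ys
    refine (hδ (A n)).2 hd (s ∩ t n) (ht n) ?_
    exact measure_mono_null (image_mono inter_subset_left) h0
  apply hs
  have hsub : s ⊆ ⋃ n, s ∩ t n := by
    intro x hx
    obtain ⟨n, hn⟩ := mem_iUnion.1 (t_cover hx)
    exact mem_iUnion.2 ⟨n, hx, hn⟩
  exact measure_mono_null hsub (measure_iUnion_null hnull)

omit [MeasurableSpace E] [BorelSpace E] in
/-- For a fixed endomorphism `B`, only finitely many scalars `c` make `id + c⁻¹ • B`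
singular. -/
theorem finite_singular_scalings (B : E →L[ℝ] E) :
    {c : ℝ | c ≠ 0 ∧ (ContinuousLinearMap.id ℝ E + c⁻¹ • B).det = 0}.Finite := by
  have hfin : (spectrum ℝ (B : Module.End ℝ E)).Finite := Module.End.finite_spectrum _
  refine (hfin.image (fun x => -x)).subset ?_
  rintro c ⟨hc, hdet⟩
  refine ⟨-c, ?_, by simp⟩
  rw [spectrum.mem_iff]
  intro hunit
  have h1 := (LinearMap.isUnit_iff_isUnit_det _).1 hunit
  have h2 : ((ContinuousLinearMap.id ℝ E + c⁻¹ • B : E →L[ℝ] E) : E →ₗ[ℝ] E)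
      = (-c⁻¹) • (algebraMap ℝ (Module.End ℝ E) (-c) - (B : Module.End ℝ E)) := by
    ext x
    simp [Module.algebraMap_end_apply, smul_sub, smul_smul, hc]
  have h3 : (ContinuousLinearMap.id ℝ E + c⁻¹ • B).det
      = LinearMap.det ((-c⁻¹) • (algebraMap ℝ (Module.End ℝ E) (-c) - (B : Module.End ℝ E))) := by
    rw [← h2]
  rw [h3, LinearMap.det_smul] at hdet
  rcases mul_eq_zero.1 hdet with h4 | h4
  · exact pow_ne_zero _ (neg_ne_zero.2 (inv_ne_zero hc)) h4
  · exact h1.ne_zero h4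

/-- Radial projection onto the unit sphere. -/
noncomputable def nrm (v : E) : E := ‖v‖⁻¹ • v

omit [FiniteDimensional ℝ E] [MeasurableSpace E] [BorelSpace E] in
lemma nrm_smul {c : ℝ} (hc : 0 < c) (v : E) : nrm (c • v) = nrm v := by
  unfold nrm
  rw [norm_smul, Real.norm_of_nonneg hc.le, smul_smul, mul_inv, mul_comm c⁻¹, mul_assoc,
    inv_mul_cancel₀ hc.ne', mul_one]

omit [FiniteDimensional ℝ E] [MeasurableSpace E] [BorelSpace E] in
lemma nrm_of_norm_eq_one {e : E} (he : ‖e‖ = 1) : nrm e = e := by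
  unfold nrm
  rw [he, inv_one, one_smul]

omit [FiniteDimensional ℝ E] [MeasurableSpace E] [BorelSpace E] in
lemma norm_smul_nrm {v : E} (hv : v ≠ 0) : ‖v‖ • nrm v = v := by
  unfold nrm
  rw [smul_smul, mul_inv_cancel₀ (norm_ne_zero_iff.2 hv), one_smul]

omit [FiniteDimensional ℝ E] [MeasurableSpace E] [BorelSpace E] in
lemma nrm_lipschitzOn : LipschitzOnWith 8 (nrm : E → E) {v | 1 / 4 < ‖v‖} := by
  apply LipschitzOnWith.of_dist_le_mul
  intro v hv w hw
  have hv' : (1 : ℝ) / 4 < ‖v‖ := hv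
  have hw' : (1 : ℝ) / 4 < ‖w‖ := hw
  have hv0 : 0 < ‖v‖ := lt_trans (by norm_num) hv'
  have hw0 : 0 < ‖w‖ := lt_trans (by norm_num) hw'
  rw [dist_eq_norm, dist_eq_norm]
  have e : nrm v - nrm w = ‖v‖⁻¹ • (v - w) + (‖v‖⁻¹ - ‖w‖⁻¹) • w := by
    unfold nrm
    module
  have h1 : |‖w‖ - ‖v‖| ≤ ‖v - w‖ := by
    rw [abs_sub_comm]; exact abs_norm_sub_norm_le v w
  have h2 : |‖v‖⁻¹ - ‖w‖⁻¹| * ‖w‖ = ‖v‖⁻¹ * |‖w‖ - ‖v‖| := by
    have : ‖v‖⁻¹ - ‖w‖⁻¹ = (‖w‖ - ‖v‖) / (‖v‖ * ‖w‖) := by field_simp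
    rw [this, abs_div, abs_of_pos (mul_pos hv0 hw0)]
    field_simp
  have h3 : ‖v‖⁻¹ ≤ 4 := by
    rw [inv_le_comm₀ hv0 (by norm_num)]
    linarith
  have h4 : 0 ≤ ‖v‖⁻¹ := inv_nonneg.2 hv0.le
  calc ‖nrm v - nrm w‖ = ‖‖v‖⁻¹ • (v - w) + (‖v‖⁻¹ - ‖w‖⁻¹) • w‖ := by rw [e]
    _ ≤ ‖‖v‖⁻¹ • (v - w)‖ + ‖(‖v‖⁻¹ - ‖w‖⁻¹) • w‖ := norm_add_le _ _
    _ = ‖v‖⁻¹ * ‖v - w‖ + ‖v‖⁻¹ * |‖w‖ - ‖v‖| := by
        rw [norm_smul, norm_smul, norm_inv, norm_norm, Real.norm_eq_abs, h2]
    _ ≤ ‖v‖⁻¹ * ‖v - w‖ + ‖v‖⁻¹ * ‖v - w‖ := by gcongr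
    _ ≤ ((8 : ℝ≥0) : ℝ) * ‖v - w‖ := by
        push_cast
        nlinarith [norm_nonneg (v - w)]

/-- **Segments with a Lipschitz choice of base points along a set of directions of positive
measure fill a set of positive measure.** Let `D` be a set of unit vectors whose cone
`(0,1) • D` has positive outer measure, and let `a` be Lipschitz on `D`. Any set `K` containing
all the unit segments `{a e + t • e : 0 ≤ t ≤ 1}`, `e ∈ D`, has positive outer measure. -/
theorem measure_ne_zero_of_lipschitzOn_directions {D K : Set E} {a : E → E} {L : ℝ≥0}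
    (hD : D ⊆ sphere (0 : E) 1) (hpos : μ (Ioo (0 : ℝ) 1 • D) ≠ 0)
    (ha : LipschitzOnWith L a D)
    (hK : ∀ e ∈ D, ∀ t ∈ Icc (0 : ℝ) 1, a e + t • e ∈ K) : μ K ≠ 0 := by
  obtain ⟨g, hg, hag⟩ := ha.extend_finite_dimension
  set b : E → E := fun v => g (nrm v) with hb
  set U : Set E := {v | 1 / 4 < ‖v‖} with hU
  have hUopen : IsOpen U := isOpen_lt continuous_const continuous_norm
  have hbLip : LipschitzOnWith (lipschitzExtensionConstant E * L * 8) b U :=
    hg.comp_lipschitzOnWith nrm_lipschitzOn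
  have hdiff : ∀ᵐ v ∂μ, v ∈ U → DifferentiableAt ℝ b v := by
    filter_upwards [hbLip.ae_differentiableWithinAt_of_mem (μ := μ)] with v hv hvU
    exact (hv hvU).differentiableAt (hUopen.mem_nhds hvU)
  -- homogeneity of `b` and of its derivative
  have hhom : ∀ c : ℝ, 0 < c → ∀ v, b (c • v) = b v := fun c hc v => by
    simp only [hb, nrm_smul hc]
  have hderiv : ∀ c : ℝ, 0 < c → ∀ (v : E) (B : E →L[ℝ] E), HasFDerivAt b B v →
      HasFDerivAt b (c⁻¹ • B) (c • v) := by
    intro c hc v B hB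
    have h1 : HasFDerivAt (fun w : E => c⁻¹ • w) (c⁻¹ • ContinuousLinearMap.id ℝ E) (c • v) :=
      (hasFDerivAt_id (c • v)).const_smul c⁻¹
    have h2 : HasFDerivAt b B (c⁻¹ • (c • v)) := by
      rw [smul_smul, inv_mul_cancel₀ hc.ne', one_smul]; exact hB
    have h3 := h2.comp (c • v) h1
    have h4 : (b ∘ fun w : E => c⁻¹ • w) = b := by
      funext w; exact hhom c⁻¹ (inv_pos.2 hc) w
    rw [h4] at h3
    convert h3 using 1
    ext x; simp
  set Good : Set E :=
    {v | DifferentiableAt ℝ b v ∧ (ContinuousLinearMap.id ℝ E + fderiv ℝ b v).det ≠ 0} with hGood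
  set T : Set E := {v | 1 / 4 < ‖v‖ ∧ ‖v‖ ≤ 1 ∧ nrm v ∈ D} with hT
  set Z : Set E := {v | 1 / 2 < ‖v‖ ∧ ‖v‖ ≤ 1 ∧ nrm v ∈ D} with hZdef
  -- Step 1: the shell part of the cone has positive measure
  have hZ : μ Z ≠ 0 := by
    intro hZ0
    apply hpos
    have hsub : Ioo (0 : ℝ) 1 • D ⊆ ⋃ j : ℕ, ((1 / 2 : ℝ) ^ j) • Z := by
      rintro _ ⟨t, ht, e, he, rfl⟩
      have he1 : ‖e‖ = 1 := by simpa using hD he
      obtain ⟨j, hj1, hj2⟩ := exists_nat_pow_near_of_lt_one ht.1 ht.2.le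
        (by norm_num : (0 : ℝ) < 1 / 2) (by norm_num : (1 / 2 : ℝ) < 1)
      have h2j : (0 : ℝ) < 2 ^ j := by positivity
      have hprod : (2 : ℝ) ^ j * (1 / 2) ^ j = 1 := by rw [← mul_pow]; norm_num
      have hsucc : (1 / 2 : ℝ) ^ (j + 1) = (1 / 2) * (1 / 2) ^ j := pow_succ' _ _
      have hnorm : ‖(2 : ℝ) ^ j • (t • e)‖ = 2 ^ j * t := by
        rw [norm_smul, norm_smul, he1, mul_one, Real.norm_of_nonneg h2j.le,
          Real.norm_of_nonneg ht.1.le]
      refine mem_iUnion.2 ⟨j, (2 : ℝ) ^ j • (t • e), ⟨?_, ?_, ?_⟩, ?_⟩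
      · show 1 / 2 < ‖(2 : ℝ) ^ j • (t • e)‖
        rw [hnorm]
        nlinarith
      · show ‖(2 : ℝ) ^ j • (t • e)‖ ≤ 1
        rw [hnorm]
        nlinarith
      · show nrm ((2 : ℝ) ^ j • (t • e)) ∈ D
        rw [nrm_smul h2j, nrm_smul ht.1, nrm_of_norm_eq_one he1]; exact he
      · show (1 / 2 : ℝ) ^ j • ((2 : ℝ) ^ j • (t • e)) = t • e
        rw [smul_smul, mul_comm, hprod, one_smul]
    refine measure_mono_null hsub (measure_iUnion_null fun j => ?_)
    rw [Measure.addHaar_smul, hZ0, mul_zero]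
  -- Step 2: the good part of the cone has positive measure
  have hG : μ (T ∩ Good) ≠ 0 := by
    intro hG0
    apply hZ
    set c : ℕ → ℝ := fun i => 1 / 2 + 1 / (2 * ((i : ℝ) + 1)) with hc
    have hc1 : ∀ i, 1 / 2 < c i := by
      intro i
      have : (0 : ℝ) < 1 / (2 * ((i : ℝ) + 1)) := by positivity
      simp only [hc]; linarith
    have hc2 : ∀ i, c i ≤ 1 := by
      intro i
      have h0 : (0 : ℝ) ≤ (i : ℝ) := Nat.cast_nonneg i
      have : 1 / (2 * ((i : ℝ) + 1)) ≤ 1 / 2 := by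
        rw [div_le_div_iff₀ (by positivity) (by norm_num)]
        linarith
      simp only [hc]; linarith
    have hcinj : Function.Injective c := by
      intro i j hij
      simp only [hc] at hij
      have h0 : (0 : ℝ) ≤ (i : ℝ) := Nat.cast_nonneg i
      have h0' : (0 : ℝ) ≤ (j : ℝ) := Nat.cast_nonneg j
      have h5 : 1 / (2 * ((i : ℝ) + 1)) = 1 / (2 * ((j : ℝ) + 1)) := by linarith
      rw [div_eq_div_iff (by positivity) (by positivity)] at h5
      have h6 : (i : ℝ) = j := by linarith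
      exact_mod_cast h6
    have hND : μ {v | v ∈ U ∧ ¬ DifferentiableAt ℝ b v} = 0 := by
      refine measure_mono_null ?_ (ae_iff.1 hdiff)
      intro v hv
      simp only [Set.mem_ofPred_eq, Classical.not_imp]
      exact hv
    have hsub : Z ⊆ {v | v ∈ U ∧ ¬ DifferentiableAt ℝ b v} ∪ ⋃ i : ℕ, (c i)⁻¹ • (T ∩ Good) := by
      intro v hv
      obtain ⟨hv1, hv2, hv3⟩ := hv
      by_cases hdv : DifferentiableAt ℝ b v
      · right
        have hfin := finite_singular_scalings (fderiv ℝ b v)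
        have hex : ∃ i, c i ∉ {c : ℝ | c ≠ 0 ∧
            (ContinuousLinearMap.id ℝ E + c⁻¹ • fderiv ℝ b v).det = 0} := by
          by_contra hcon
          have hall : ∀ i, c i ∈ {c : ℝ | c ≠ 0 ∧
              (ContinuousLinearMap.id ℝ E + c⁻¹ • fderiv ℝ b v).det = 0} := by
            intro i
            by_contra hi
            exact hcon ⟨i, hi⟩
          exact (Set.infinite_range_of_injective hcinj) (hfin.subset (range_subset_iff.2 hall))
        obtain ⟨i, hi⟩ := hex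
        have hci : 0 < c i := lt_trans (by norm_num) (hc1 i)
        have hnorm : ‖c i • v‖ = c i * ‖v‖ := by
          rw [norm_smul, Real.norm_of_nonneg hci.le]
        refine mem_iUnion.2 ⟨i, c i • v, ⟨⟨?_, ?_, ?_⟩, ?_⟩, ?_⟩
        · show 1 / 4 < ‖c i • v‖
          rw [hnorm]
          nlinarith [hc1 i]
        · show ‖c i • v‖ ≤ 1
          rw [hnorm]
          nlinarith [hc2 i, norm_nonneg v]
        · show nrm (c i • v) ∈ D
          rw [nrm_smul hci]; exact hv3
        · have hd := hderiv (c i) hci v _ hdv.hasFDerivAt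
          refine ⟨hd.differentiableAt, ?_⟩
          rw [hd.fderiv]
          intro hdet
          exact hi ⟨hci.ne', hdet⟩
        · show (c i)⁻¹ • (c i • v) = v
          rw [smul_smul, inv_mul_cancel₀ hci.ne', one_smul]
      · left
        exact ⟨lt_trans (by norm_num) hv1, hdv⟩
    refine measure_mono_null hsub (measure_union_null hND (measure_iUnion_null fun i => ?_))
    rw [Measure.addHaar_smul, hG0, mul_zero]
  -- Step 3: the image of the good part under `v ↦ b v + v` has positive measure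
  have himg : μ ((fun v => b v + v) '' (T ∩ Good)) ≠ 0 := by
    refine measure_image_ne_zero_of_det_ne_zero μ
      (f' := fun v => fderiv ℝ b v + ContinuousLinearMap.id ℝ E) ?_ ?_ hG
    · intro v hv
      exact (hv.2.1.hasFDerivAt.add (hasFDerivAt_id v)).hasFDerivWithinAt
    · intro v hv
      have := hv.2.2
      rwa [add_comm] at this
  -- Step 4: that image lies in `K`
  have hsubK : (fun v => b v + v) '' (T ∩ Good) ⊆ K := by
    rintro _ ⟨v, ⟨⟨h1, h2, h3⟩, -⟩, rfl⟩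
    have hv0 : v ≠ 0 := by
      intro h
      rw [h, norm_zero] at h1
      norm_num at h1
    have hmem := hK (nrm v) h3 ‖v‖ ⟨norm_nonneg v, h2⟩
    rw [norm_smul_nrm hv0] at hmem
    show g (nrm v) + v ∈ K
    rw [← hag h3]; exact hmem
  exact fun h => himg (measure_mono_null hsubK h)

/-- A set of positive outer Haar measure has full Hausdorff dimension. -/
theorem dimH_eq_finrank_of_measure_ne_zero {K : Set E} (hK : μ K ≠ 0) :
    dimH K = Module.finrank ℝ E := by
  apply le_antisymm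
  · calc dimH K ≤ dimH (univ : Set E) := dimH_mono (subset_univ _)
      _ = Module.finrank ℝ E := Real.dimH_univ_eq_finrank E
  · by_contra hlt
    rw [not_le] at hlt
    apply hK
    have hac : μ ≪ μH[((Module.finrank ℝ E : ℝ≥0) : ℝ)] := by
      rw [NNReal.coe_natCast]
      exact Measure.absolutelyContinuous_isAddHaarMeasure μ _
    refine measure_zero_of_dimH_lt hac ?_
    exact_mod_cast hlt

omit [FiniteDimensional ℝ E] [BorelSpace E] in
/-- The punctured open unit ball, written as the cone over the unit sphere, has positive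
measure as soon as the space is nontrivial. -/
theorem measure_cone_sphere_ne_zero [Nontrivial E] :
    μ (Ioo (0 : ℝ) 1 • sphere (0 : E) 1) ≠ 0 := by
  obtain ⟨x0, hx0⟩ := exists_ne (0 : E)
  have he0 : ‖nrm x0‖ = 1 := by
    unfold nrm
    rw [norm_smul, norm_inv, norm_norm, inv_mul_cancel₀ (norm_ne_zero_iff.2 hx0)]
  have hsub : ball ((1 / 2 : ℝ) • nrm x0) (1 / 4) ⊆ Ioo (0 : ℝ) 1 • sphere (0 : E) 1 := by
    intro w hw
    rw [mem_ball, dist_eq_norm] at hw
    have hc : ‖(1 / 2 : ℝ) • nrm x0‖ = 1 / 2 := by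
      rw [norm_smul, he0, mul_one, Real.norm_of_nonneg (by norm_num)]
    have h1 : ‖w‖ ≤ ‖w - (1 / 2 : ℝ) • nrm x0‖ + ‖(1 / 2 : ℝ) • nrm x0‖ := by
      have := norm_add_le (w - (1 / 2 : ℝ) • nrm x0) ((1 / 2 : ℝ) • nrm x0)
      rwa [sub_add_cancel] at this
    have h2 : ‖(1 / 2 : ℝ) • nrm x0‖ ≤ ‖w‖ + ‖w - (1 / 2 : ℝ) • nrm x0‖ := by
      have := norm_sub_le w (w - (1 / 2 : ℝ) • nrm x0)
      rwa [sub_sub_cancel] at this
    have hwpos : 0 < ‖w‖ := by linarith
    have hw0 : w ≠ 0 := norm_pos_iff.1 hwpos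
    refine ⟨‖w‖, ⟨hwpos, by linarith⟩, nrm w, ?_, norm_smul_nrm hw0⟩
    rw [mem_sphere_zero_iff_norm]
    unfold nrm
    rw [norm_smul, norm_inv, norm_norm, inv_mul_cancel₀ hwpos.ne']
  intro h0
  have hball : 0 < μ (ball ((1 / 2 : ℝ) • nrm x0) (1 / 4)) :=
    Metric.measure_ball_pos μ _ (by norm_num)
  exact hball.ne' (measure_mono_null hsub h0)

end Vale.Agent.Lib.P127
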